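import Vale.Agent.Lib.P080.Separable

/-- Let `I 0, …, I (n-1)` be nonempty open intervals and suppose that `u(x) = ∑ φ i (x i)` is
infinity-harmonic on `Ω = ∏ I i`. Then there are constants `c i`, `D i` with `∑ c i = 0` such that
each `φ i` is differentiable on `I i` with `(φ i')³ = 3 c i t + D i`; the function `u` is `C¹` on
`Ω`; and the universal `C^{1,1/3}` estimate holds: if `[p, q] ⊆ I i` and the oscillation of `φ i` on
`[p, q]` is at most `M`, then `|φ i' s - φ i' t|³ (q - p)⁴ ≤ 1024 M³ |s - t|` on `[p, q]`. -/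
theorem Vale.Agent.Results.P080.A_separable.result {n : ℕ}
    (I : Fin n → Set ℝ) (φ : Fin n → ℝ → ℝ)
    (hIo : ∀ i, IsOpen (I i)) (hIc : ∀ i, (I i).OrdConnected) (hIne : ∀ i, (I i).Nonempty)
    (hu : Vale.Agent.Lib.P080.IsInfHarmonic (Set.pi Set.univ I) (fun x => ∑ k, φ k (x k))) :
    ∃ c D : Fin n → ℝ, ∑ i, c i = 0 ∧
      (∀ i, ∀ t ∈ I i, DifferentiableAt ℝ (φ i) t ∧ (deriv (φ i) t) ^ 3 = 3 * c i * t + D i) ∧
      ContDiffOn ℝ 1 (fun x : Fin n → ℝ => ∑ k, φ k (x k)) (Set.pi Set.univ I) ∧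
      (∀ i, ∀ p q M : ℝ, p < q → Set.Icc p q ⊆ I i →
        (∀ a ∈ Set.Icc p q, ∀ b ∈ Set.Icc p q, |φ i a - φ i b| ≤ M) →
        ∀ s ∈ Set.Icc p q, ∀ t ∈ Set.Icc p q,
          |deriv (φ i) s - deriv (φ i) t| ^ 3 * (q - p) ^ 4 ≤ 1024 * M ^ 3 * |s - t|) :=
  Vale.Agent.Lib.P080.separable_infHarmonic hIo hIc hIne hu
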